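import Vale.Agent.P265.Main

open scoped Manifold ContDiff
open Vale.Agent.P265

namespace Vale.Agent.Results.P265.NotArnold

theorem result : ¬ ∀ (n : ℕ) (M : Type) [TopologicalSpace M] [T2Space M] [CompactSpace M]
    [ConnectedSpace M] [ChartedSpace (Eu n) M] [IsManifold 𝓘(ℝ, Eu n) ∞ M]
    (Ω : M → Eu n →L[ℝ] Eu n →L[ℝ] ℝ) (H : ℝ × M → ℝ) (φ : ℝ × M → M),
    IsSymplectic Ω → IsHamFlow Ω H φ → NondegFix (Eu n) φ →
      stableMorse (Eu n) M ≤ (Fix0 (M := M) φ).encard := by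
  intro h
  obtain ⟨a, H, φ, h1, h2, h3, h4⟩ := counterexample
  haveI : CompactSpace a.toAtl.M := isCompact_iff_compactSpace.1 (XS_cpt.prod YS_cpt)
  haveI : ConnectedSpace a.toAtl.M := isConnected_iff_connectedSpace.1 (XS_conn.prod YS_conn)
  haveI := a.toAtl.isManifold
  have h5 := h 8 a.toAtl.M a.form H φ a.symplectic h1 h2
  have h6 : (Fix0 φ).encard ≤ 60 := (Set.encard_le_encard fun x hx => hx.1).trans h3
  exact absurd (h4.trans (h5.trans h6)) (by norm_num)

end Vale.Agent.Results.P265.NotArnold
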